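import Vale.Agent.P147.All

namespace Vale.Agent.Results.P147.OppositeSpeeds

open MeasureTheory Filter Topology Vale.Agent.P147

/-- In dimension at least three, for every iid elliptic environment law: a positive and a negative
speed in the same coordinate direction cannot both have positive annealed probability, and neither
can two opposite nonzero velocities. -/
theorem result (d : ℕ) (hd : 3 ≤ d) (μ : Measure (U d → ℝ)) [IsProbabilityMeasure μ]
    (hμ : Elliptic μ) (Ω : Type) [MeasurableSpace Ω] (P : Measure Ω) [IsProbabilityMeasure P]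
    (X : ℕ → Ω → Site d) (hX : IsWalk μ P X) :
    (∀ i : Fin d, P (Fast X i) = 0 ∨ P (Slow X i) = 0) ∧
    ∀ (v : Fin d → ℝ) (c : ℝ), v ≠ 0 → 0 < c →
      P {ξ | Tendsto (fun (n : ℕ) (j : Fin d) => (X n ξ j : ℝ) / n) atTop (𝓝 v)} = 0 ∨
      P {ξ | Tendsto (fun (n : ℕ) (j : Fin d) => (X n ξ j : ℝ) / n) atTop (𝓝 (-(c • v)))} = 0 :=
  ⟨fun i => final_all d i hd μ hμ Ω P X hX,
    fun v c hv hc => vel final_all d hd μ hμ Ω P X hX v c hv hc⟩

end Vale.Agent.Results.P147.OppositeSpeeds
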